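import Vale.Agent.P199.Main

/-!
# P199: Kurosh's problem over fields with pronilpotent Galois group, bounded indices
-/

set_option autoImplicit false

namespace Vale.Agent.Results.P199.BoundedIndex

universe u v

/-- Let `k` be a field all of whose finite Galois extensions have a nilpotent Galois group, and let
`D` be a division ring which is algebraic over `k` (with `k` central). If every finite-dimensional
`k`-subalgebra of `D` has dimension at most `m` over its own center, then `D` has dimension at most
`m` over its center, and every finitely generated `k`-subalgebra of `D` is finite-dimensional over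
`k`. -/
theorem result (k : Type u) [Field k]
    (hG : ∀ (L : Type u) [Field L] [Algebra k L] [FiniteDimensional k L] [IsGalois k L],
      Group.IsNilpotent (L ≃ₐ[k] L))
    (D : Type v) [DivisionRing D] [Algebra k D] [Algebra.IsAlgebraic k D] (m : ℕ)
    (hm : ∀ A : Subalgebra k D, FiniteDimensional k A →
      Module.finrank (Subring.center A) A ≤ m) :
    FiniteDimensional (Subring.center D) D ∧ Module.finrank (Subring.center D) D ≤ m ∧
      ∀ S : Finset D, FiniteDimensional k (Algebra.adjoin k (S : Set D)) := by
  have hfin : Module.Finite (Subring.center D) D := Vale.Agent.P199.main_finite hG hm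
  refine ⟨hfin, ?_, fun S => ?_⟩
  · obtain ⟨A, hA, _, a, ha⟩ := Vale.Agent.P199.descend (k := k) (D := D) ∅
    have hfA : FiniteDimensional k A := (Submodule.fg_iff_finiteDimensional _).mp hA
    exact (Vale.Agent.P199.card_le_sub A a ha).trans (hm A hfA)
  · obtain ⟨A, hA, hS, _⟩ := Vale.Agent.P199.descend (k := k) (D := D) S
    have hfA : FiniteDimensional k A := (Submodule.fg_iff_finiteDimensional _).mp hA
    have hle : Algebra.adjoin k (S : Set D) ≤ A := Algebra.adjoin_le hS
    exact FiniteDimensional.of_injective (Subalgebra.inclusion hle).toLinearMap
      (Subalgebra.inclusion_injective hle)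

end Vale.Agent.Results.P199.BoundedIndex
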