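import Vale.Agent.P199.Pairs

/-!
# P199: Kurosh's problem over fields with pronilpotent Galois group, boundedly many commuting pairs
-/

set_option autoImplicit false

namespace Vale.Agent.Results.P199.CommutingPairs

universe u v

/-- Let `k` be a field all of whose finite Galois extensions have a nilpotent Galois group, and let
`D` be a division ring which is algebraic over `k` (with `k` central). If no finite-dimensional
`k`-subalgebra of `D` contains `m + 1` mutually commuting noncommuting pairs `(x i, y i)`, then `D`
is finite-dimensional over its center, and every finitely generated `k`-subalgebra of `D` is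
finite-dimensional over `k`. -/
theorem result (k : Type u) [Field k]
    (hG : ∀ (L : Type u) [Field L] [Algebra k L] [FiniteDimensional k L] [IsGalois k L],
      Group.IsNilpotent (L ≃ₐ[k] L))
    (D : Type v) [DivisionRing D] [Algebra k D] [Algebra.IsAlgebraic k D] (m : ℕ)
    (hm : ∀ A : Subalgebra k D, FiniteDimensional k A → ∀ x y : Fin (m + 1) → A,
      (∀ i j, i ≠ j → x i * x j = x j * x i ∧ x i * y j = y j * x i ∧ y i * y j = y j * y i) →
      ∃ i, x i * y i = y i * x i) :
    FiniteDimensional (Subring.center D) D ∧
      ∀ S : Finset D, FiniteDimensional k (Algebra.adjoin k (S : Set D)) := by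
  have hfin : Module.Finite (Subring.center D) D := Vale.Agent.P199.pairs_finite hG hm
  refine ⟨hfin, fun S => ?_⟩
  obtain ⟨A, hA, hS, _⟩ := Vale.Agent.P199.descend (k := k) (D := D) S
  have hfA : FiniteDimensional k A := (Submodule.fg_iff_finiteDimensional _).mp hA
  have hle : Algebra.adjoin k (S : Set D) ≤ A := Algebra.adjoin_le hS
  exact FiniteDimensional.of_injective (Subalgebra.inclusion hle).toLinearMap
    (Subalgebra.inclusion_injective hle)

end Vale.Agent.Results.P199.CommutingPairs
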