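import Vale.Agent.P199.Pairs

/-!
# P199: Kurosh's problem over fields with nilpotent finite Galois groups, all forms
-/

set_option autoImplicit false

namespace Vale.Agent.Results.P199.KuroshNilpotent

universe u v

/-- Let `k` be a field all of whose finite Galois extensions have a nilpotent Galois group, and let
`D` be a division ring which is algebraic over `k` (with `k` central).

(1) If `D` is not commutative, it contains a noncommutative finite-dimensional `k`-subalgebra.
(2) If every finite-dimensional `k`-subalgebra of `D` has dimension at most `m` over its center, then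
`D` has dimension at most `m` over its center.
(3) If no finite-dimensional `k`-subalgebra of `D` contains `m + 1` mutually commuting noncommuting
pairs, then `D` is finite-dimensional over its center.
In (2) and (3) every finitely generated `k`-subalgebra of `D` is finite-dimensional over `k`. -/
theorem result (k : Type u) [Field k]
    (hG : ∀ (L : Type u) [Field L] [Algebra k L] [FiniteDimensional k L] [IsGalois k L],
      Group.IsNilpotent (L ≃ₐ[k] L))
    (D : Type v) [DivisionRing D] [Algebra k D] [Algebra.IsAlgebraic k D] :
    ((∃ a b : D, a * b ≠ b * a) →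
      ∃ A : Subalgebra k D, FiniteDimensional k A ∧ ∃ a ∈ A, ∃ b ∈ A, a * b ≠ b * a) ∧
    (∀ m : ℕ, (∀ A : Subalgebra k D, FiniteDimensional k A →
        Module.finrank (Subring.center A) A ≤ m) →
      FiniteDimensional (Subring.center D) D ∧ Module.finrank (Subring.center D) D ≤ m ∧
        ∀ S : Finset D, FiniteDimensional k (Algebra.adjoin k (S : Set D))) ∧
    (∀ m : ℕ, (∀ A : Subalgebra k D, FiniteDimensional k A → ∀ x y : Fin (m + 1) → A,
        (∀ i j, i ≠ j → x i * x j = x j * x i ∧ x i * y j = y j * x i ∧ y i * y j = y j * y i) →
        ∃ i, x i * y i = y i * x i) →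
      FiniteDimensional (Subring.center D) D ∧
        ∀ S : Finset D, FiniteDimensional k (Algebra.adjoin k (S : Set D))) := by
  have hloc : Module.Finite (Subring.center D) D →
      ∀ S : Finset D, FiniteDimensional k (Algebra.adjoin k (S : Set D)) := by
    intro hfin S
    obtain ⟨A, hA, hS, _⟩ := Vale.Agent.P199.descend (k := k) (D := D) S
    have hfA : FiniteDimensional k A := (Submodule.fg_iff_finiteDimensional _).mp hA
    have hle : Algebra.adjoin k (S : Set D) ≤ A := Algebra.adjoin_le hS
    exact FiniteDimensional.of_injective (Subalgebra.inclusion hle).toLinearMap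
      (Subalgebra.inclusion_injective hle)
  refine ⟨?_, ?_, ?_⟩
  · rintro ⟨a, b, hab⟩
    have hnc : Subring.center D ≠ ⊤ := by
      intro h
      have : a ∈ Subring.center D := by rw [h]; exact Subring.mem_top a
      exact hab (Subring.mem_center_iff.mp this b).symm
    obtain ⟨B, hBfg, x, hx, y, hy, hxy⟩ := Vale.Agent.P199.exists_pair hG hnc
    exact ⟨B, (Submodule.fg_iff_finiteDimensional _).mp hBfg, x, hx, y, hy, hxy⟩
  · intro m hm
    have hfin : Module.Finite (Subring.center D) D := Vale.Agent.P199.main_finite hG hm
    refine ⟨hfin, ?_, hloc hfin⟩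
    obtain ⟨A, hA, _, a, ha⟩ := Vale.Agent.P199.descend (k := k) (D := D) ∅
    have hfA : FiniteDimensional k A := (Submodule.fg_iff_finiteDimensional _).mp hA
    exact (Vale.Agent.P199.card_le_sub A a ha).trans (hm A hfA)
  · intro m hm
    have hfin : Module.Finite (Subring.center D) D := Vale.Agent.P199.pairs_finite hG hm
    exact ⟨hfin, hloc hfin⟩

end Vale.Agent.Results.P199.KuroshNilpotent
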