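import Vale.Agent.P199.Fd

/-!
# P199: Kurosh's problem over fields with pronilpotent Galois group and trivial Brauer groups
-/

set_option autoImplicit false

namespace Vale.Agent.Results.P199.Pronilpotent

universe u v

/-- Let `k` be a field all of whose finite Galois extensions have a nilpotent Galois group, and such
that every finite-dimensional division algebra over `k` is commutative. Then every division ring
which is algebraic over `k` (with `k` central) is commutative, and each of its finitely generated
`k`-subalgebras is finite-dimensional. -/
theorem result (k : Type u) [Field k]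
    (hG : ∀ (L : Type u) [Field L] [Algebra k L] [FiniteDimensional k L] [IsGalois k L],
      Group.IsNilpotent (L ≃ₐ[k] L))
    (hB : ∀ (A : Type v) [DivisionRing A] [Algebra k A] [FiniteDimensional k A],
      ∀ a b : A, a * b = b * a)
    (D : Type v) [DivisionRing D] [Algebra k D] [Algebra.IsAlgebraic k D] :
    (∀ a b : D, a * b = b * a) ∧
      ∀ S : Finset D, FiniteDimensional k (Algebra.adjoin k (S : Set D)) := by
  have hcomm : ∀ a b : D, a * b = b * a := by
    by_contra hcon
    push Not at hcon
    obtain ⟨a, b, hab⟩ := hcon
    have hnc : Subring.center D ≠ ⊤ := by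
      intro h
      have : a ∈ Subring.center D := by rw [h]; exact Subring.mem_top a
      exact hab (Subring.mem_center_iff.mp this b).symm
    obtain ⟨B, hBfg, x, hx, y, hy, hxy⟩ := Vale.Agent.P199.exists_pair hG hnc
    have hfin : FiniteDimensional k B := (Submodule.fg_iff_finiteDimensional _).mp hBfg
    let _ : DivisionRing B := divisionRingOfFiniteDimensional k B
    have h := hB B ⟨x, hx⟩ ⟨y, hy⟩
    exact hxy (congrArg Subtype.val h)
  refine ⟨hcomm, fun S => ?_⟩
  classical
  have hcen : ∀ t : D, t ∈ Subalgebra.center k D := fun t => by
    rw [Subalgebra.mem_center_iff]; intro b; exact hcomm b t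
  obtain ⟨E, hE, _, hES⟩ := Vale.Agent.P199.center_fd (k := k) S fun t _ =>
    ⟨hcen t, (Algebra.IsAlgebraic.isAlgebraic t).isIntegral⟩
  have hle : Algebra.adjoin k (S : Set D) ≤ E := Algebra.adjoin_le hES
  have hfin : FiniteDimensional k E := (Submodule.fg_iff_finiteDimensional _).mp hE
  exact FiniteDimensional.of_injective (Subalgebra.inclusion hle).toLinearMap
    (Subalgebra.inclusion_injective hle)

end Vale.Agent.Results.P199.Pronilpotent
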